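import Vale.Agent.H5.P063Main

namespace Vale.Agent.Results.P063.LowerWidth

open Vale.Agent.H5.P063

/-- For every `r ≥ 2` and every `0 < ε < 1/2` there is `c > 0` such that for every `n ≥ r` some
nontrivial increasing `r`-uniform hypergraph property on `n` vertices has threshold width at least
`c (log n)^{-r/(r-1)}`. -/
theorem result : ∀ r : ℕ, 2 ≤ r → ∀ ε : ℝ, 0 < ε → ε < 1 / 2 →
    ∃ c : ℝ, 0 < c ∧ ∀ n : ℕ, r ≤ n → ∃ P : Set (Finset (Finset (Fin n))),
      IsProperty n r P ∧ IsIncreasing n r P ∧ IsNontrivial n r P ∧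
      c * (Real.log n) ^ (-((r : ℝ) / ((r : ℝ) - 1))) ≤ width n r P ε :=
  fun r hr ε h0 h1 => main r hr ε h0 h1

end Vale.Agent.Results.P063.LowerWidth
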