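import Vale.Agent.P063K.Asym
import Vale.Agent.P063K.Width
import Vale.Agent.H5.P063Main

namespace Vale.Agent.Results.P063.ThresholdWidth

open Vale.Agent.H5.P063

/-- The Friedgut-Kalai threshold width conjectures. For every `r ≥ 2` and every `0 < ε < 1/2`
there are constants `c, C > 0` such that for every `n ≥ r`:
* every nontrivial increasing `r`-uniform hypergraph property on `n` vertices has threshold width
  at most `C (log n)^{-r/(r-1)}`;
* some nontrivial increasing `r`-uniform hypergraph property on `n` vertices has threshold width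
  at least `c (log n)^{-r/(r-1)}`.
For `r = 2` (graph properties) the exponent is `-2`. -/
theorem result : ∀ r : ℕ, 2 ≤ r → ∀ ε : ℝ, 0 < ε → ε < 1 / 2 →
    ∃ c C : ℝ, 0 < c ∧ 0 < C ∧ ∀ n : ℕ, r ≤ n →
      (∀ P : Set (Finset (Finset (Fin n))), IsProperty n r P → IsIncreasing n r P →
        IsNontrivial n r P → width n r P ε ≤ C * (Real.log n) ^ (-((r : ℝ) / ((r : ℝ) - 1)))) ∧
      (∃ P : Set (Finset (Finset (Fin n))), IsProperty n r P ∧ IsIncreasing n r P ∧
        IsNontrivial n r P ∧ c * (Real.log n) ^ (-((r : ℝ) / ((r : ℝ) - 1))) ≤ width n r P ε) := by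
  intro r hr ε h0 h1
  obtain ⟨C, hC, hup⟩ := P063K.width_of_infl P063K.infl_lower r hr ε h0 h1
  obtain ⟨c, hc, hlow⟩ := main r hr ε h0 h1
  exact ⟨c, C, hc, hC, fun n hn => ⟨hup n hn, hlow n hn⟩⟩

end Vale.Agent.Results.P063.ThresholdWidth
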